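import Vale.Agent.P218.Main

namespace Vale.Agent.Results.P218.Sym

open MeasureTheory Filter Vale.Agent.P218

theorem result (μ : ℝ → Measure E3) (x0 : E3) (t0 : ℝ) (hs : Soft μ x0 t0) :
    ({ν | IsTan μ x0 t0 ν}.Countable → Conv μ x0 t0) ∧
    (∀ (G : Set O3) (S : Set (Measure E3)), G.Finite → (Cent G).Countable →
      (∀ g ∈ G, Inv μ x0 g) → S.Countable → (∀ ν0 ∈ S, (Stab ν0).Countable) →
      (∀ ν, IsTan μ x0 t0 ν → ∃ ν0 ∈ S, ∃ R : O3, ν = rot R ν0) → Conv μ x0 t0) := by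
  refine ⟨conv_of_countable hs, fun G S hf hz hG hS hst hrot => conv_of_countable hs ?_⟩
  refine (hS.biUnion fun ν0 h0 => (countable_of_sym G hf ν0 hz (hst ν0 h0)).image
    fun R : O3 => ν0.map R).mono fun ν hν => ?_
  obtain ⟨ν0, h0, R, rfl⟩ := hrot ν hν
  exact Set.mem_iUnion₂.mpr ⟨ν0, h0, R, fun g hg => tan_inv g (hG g hg) hν, rfl⟩

end Vale.Agent.Results.P218.Sym
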